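import Vale.Agent.P021.Defs
import Vale.Agent.P021.Main

namespace Vale.Agent.Results.P021.PiTwo

open Vale.Agent.P021

theorem finite_of_two_lt {ν : ℝ} (hν : 2 < ν) : (approxPairs Real.pi ν).Finite := by
  by_contra hinf
  refine no_good_approx hν fun T => ?_
  by_contra hcon
  push Not at hcon
  obtain ⟨M, hM⟩ := exists_nat_ge (Real.exp T)
  refine hinf (((Set.finite_Icc (-(5 * M : ℤ)) (5 * M)).prod (Set.finite_Icc (0 : ℤ) M)).subset ?_)
  rintro ⟨p, q⟩ ⟨_, h2, _, h4⟩
  dsimp only at h2 h4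
  obtain ⟨n, rfl⟩ := Int.eq_ofNat_of_zero_le (show 0 ≤ q by omega)
  have hn : (2 : ℝ) ≤ n := by exact_mod_cast h2
  rw [Int.cast_natCast, Real.rpow_def_of_pos (by linarith), mul_neg, mul_comm] at h4
  have h5 : Real.log n ≤ T := by
    by_contra h
    exact absurd h4 (not_lt.2 (hcon (p, n) (not_le.1 h)).le)
  have h6 : (n : ℝ) ≤ M := ((Real.log_le_iff_le_exp (by linarith)).1 h5).trans hM
  have h7 : Real.exp (-(ν * Real.log n)) ≤ 1 :=
    Real.exp_le_one_iff.2 (neg_nonpos.2 (mul_nonneg (by linarith) (Real.log_nonneg (by linarith))))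
  obtain ⟨h8, h9⟩ := abs_lt.1 (h4.trans_le h7)
  have h10 : (p : ℝ) / n < 5 := by linarith [Real.pi_le_four]
  have h11 : 0 < (p : ℝ) / n := by linarith [Real.pi_gt_three]
  rw [div_lt_iff₀ (by linarith)] at h10
  rw [div_pos_iff_of_pos_right (by linarith)] at h11
  refine ⟨⟨?_, ?_⟩, by positivity, by dsimp only; exact_mod_cast h6⟩
  · have : (-(5 * M : ℤ) : ℝ) ≤ p := by push_cast; linarith
    exact_mod_cast this
  · have : (p : ℝ) ≤ (5 * M : ℤ) := by push_cast; linarith
    exact_mod_cast this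

theorem two_mem : (2 : ℝ) ∈ exponentSet Real.pi := by
  refine ⟨two_pos, fun hfin => ?_⟩
  refine Real.infinite_rat_abs_sub_lt_one_div_den_sq_of_irrational irrational_pi ?_
  refine Set.Finite.of_finite_image (f := fun r : ℚ => (r.num, (r.den : ℤ)))
    ((hfin.union ((Set.finite_Icc (0 : ℤ) 5).prod (Set.finite_singleton (1 : ℤ)))).subset ?_) ?_
  · rintro _ ⟨r, hr, rfl⟩
    simp only [Set.mem_ofPred_eq] at hr
    by_cases h : r.den = 1
    · right
      rw [h, Nat.cast_one, one_pow, div_one, Rat.cast_def, h, Nat.cast_one, div_one] at hr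
      obtain ⟨h1, h2⟩ := abs_lt.1 hr
      refine ⟨⟨?_, ?_⟩, by simp [h]⟩
      · have : (0 : ℝ) ≤ r.num := by linarith [Real.pi_gt_three]
        exact_mod_cast this
      · have : (r.num : ℝ) ≤ 5 := by linarith [Real.pi_le_four]
        exact_mod_cast this
    · left
      have h0 := r.den_pos
      have e : ((r.num : ℝ) / ((r.den : ℤ) : ℝ)) = r := by rw [Rat.cast_def]; simp
      refine ⟨Int.isCoprime_iff_gcd_eq_one.2 r.reduced, by dsimp only; omega, ?_, ?_⟩
      · dsimp only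
        rw [e, abs_pos, sub_ne_zero]
        exact irrational_pi.ne_rat r
      · dsimp only
        rw [e, Real.rpow_neg (by positivity), Int.cast_natCast, Real.rpow_two, ← one_div]
        exact hr
  · intro r _ r' _ h
    obtain ⟨h1, h2⟩ := Prod.ext_iff.1 h
    exact Rat.ext h1 (by dsimp only at h2; exact_mod_cast h2)

theorem result : irrationalityExponent Real.pi = 2 ∧ IsLUB (exponentSet Real.pi) 2 ∧
    ∀ ν : ℝ, 2 < ν → (approxPairs Real.pi ν).Finite := by
  have hub : (2 : ℝ) ∈ upperBounds (exponentSet Real.pi) := fun ν hν =>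
    not_lt.1 fun h => hν.2 (finite_of_two_lt h)
  refine ⟨le_antisymm (sSup_le ?_) (le_sSup ⟨2, two_mem, rfl⟩),
    IsGreatest.isLUB ⟨two_mem, hub⟩, fun ν hν => finite_of_two_lt hν⟩
  rintro _ ⟨ν, hν, rfl⟩
  exact EReal.coe_le_coe_iff.2 (hub hν)

end Vale.Agent.Results.P021.PiTwo
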